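import Vale.Agent.P333.H220.Blow
import Vale.Agent.P333.H476.K6.Main

set_option autoImplicit false

/-!
P333: every greedy superstring of some families of arbitrarily long strings is longer than twice a
shortest superstring, by more than any constant.
-/

namespace Vale.Agent.P333.H476

theorem every_output (n : ℕ) : ∃ S : List (List ℕ), n ≤ opt S ∧ Greedy.Reduced S S ∧
    (∃ t, Greedy.Output S t) ∧
    ∀ t, Greedy.Output S t → 2 * opt S + n < t.length ∧ 2107 * opt S < 1000 * t.length := by
  have h0 : ∃ s ∈ K6.fam.map Nm.str, s ≠ [] := by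
    refine ⟨Nm.str K6.s0, List.mem_map_of_mem (by simp [K6.fam]), ?_⟩
    intro h
    have h1 := Nm.length_str K6.s0
    rw [h] at h1
    exact absurd h1 (by decide +kernel)
  obtain ⟨S, h1, h2, h3, h4⟩ := H220.Blow.lift_forall (a := 2107) (b := 1000) K6.reduced
    K6.outs.1 (fun t ht => by
      have h5 := K6.outs.2 t ht
      have h6 := K6.opt_le
      omega) h0 (20 * n)
  refine ⟨S, by omega, h2, h3, fun t ht => ?_⟩
  have h5 := h4 t ht
  constructor <;> omega

end Vale.Agent.P333.H476
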