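import Vale.Agent.P333.H476.Str

set_option autoImplicit false

/-!
P333: no string of the counterexample is a substring of another one, and the string `sup2` of length
720 contains all of them.
-/

namespace Vale.Agent.P333.H476

open Vale.Agent.P333.H984

theorem free_fam : free fam = true := by decide +kernel

theorem reduced : Greedy.Reduced fam fam := by
  refine ⟨by decide +kernel, fun s => ⟨fun h => ⟨h, fun t ht hst => free_spec free_fam h ht hst⟩,
    fun h => h.1⟩⟩

theorem opt_le : opt fam ≤ 720 := by
  have h1 : IsSuperstring fam sup2 := by
    have h2 : (fam.all fun s => isInf s sup2) = true := by decide +kernel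
    rw [List.all_eq_true] at h2
    intro s hs
    exact (isInf_iff s sup2).1 (h2 s hs)
  exact Nat.sInf_le ⟨sup2, h1, by decide +kernel⟩

theorem length_out : (g17).length = 1462 := by decide +kernel

end Vale.Agent.P333.H476
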