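import Vale.Agent.P333.H476.Str

set_option autoImplicit false

/-!
P333: steps 0 to 0 of the greedy algorithm on the counterexample.
-/

namespace Vale.Agent.P333.H476

open Vale.Agent.P333.H984

theorem step0 : Greedy.Step
    [s0, s1, s2, s3, s4, s5, s6, s7, s8, s9, s10, s11, h0, h1, h2, h3, h4, h5, h6]
    [g0, s0, s1, s2, s3, s4, s5, s6, s7, s8, s9, s10, s11, h0, h1, h2, h3, h6] :=
  step_of h4 h5 g0
    [s0, s1, s2, s3, s4, s5, s6, s7, s8, s9, s10, s11, h0, h1, h2, h3, h6] 162
    ((List.perm_middle (l₁ := [s0, s1, s2, s3, s4, s5, s6, s7, s8, s9, s10, s11, h0, h1, h2, h3]) (a := h4)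
      (l₂ := [h5, h6])).trans
      ((List.perm_middle (l₁ := [s0, s1, s2, s3, s4, s5, s6, s7, s8, s9, s10, s11, h0, h1, h2, h3]) (a := h5)
      (l₂ := [h6])).cons h4))
    (by decide +kernel) (by decide +kernel) (by decide +kernel) (by decide +kernel)
    (by decide +kernel) rfl

end Vale.Agent.P333.H476
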