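import Vale.Agent.P333.H476.Str

set_option autoImplicit false

/-!
P333: steps 1 to 2 of the greedy algorithm on the counterexample.
-/

namespace Vale.Agent.P333.H476

open Vale.Agent.P333.H984

theorem step1 : Greedy.Step
    [g0, s0, s1, s2, s3, s4, s5, s6, s7, s8, s9, s10, s11, h0, h1, h2, h3, h6]
    [g1, g0, s0, s1, s2, s3, s4, s5, s6, s7, s10, s11, h0, h1, h2, h3, h6] :=
  step_of s8 s9 g1
    [g0, s0, s1, s2, s3, s4, s5, s6, s7, s10, s11, h0, h1, h2, h3, h6] 162
    ((List.perm_middle (l₁ := [g0, s0, s1, s2, s3, s4, s5, s6, s7]) (a := s8)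
      (l₂ := [s9, s10, s11, h0, h1, h2, h3, h6])).trans
      ((List.perm_middle (l₁ := [g0, s0, s1, s2, s3, s4, s5, s6, s7]) (a := s9)
      (l₂ := [s10, s11, h0, h1, h2, h3, h6])).cons s8))
    (by decide +kernel) (by decide +kernel) (by decide +kernel) (by decide +kernel)
    (by decide +kernel) rfl

theorem step2 : Greedy.Step
    [g1, g0, s0, s1, s2, s3, s4, s5, s6, s7, s10, s11, h0, h1, h2, h3, h6]
    [g2, g1, s0, s1, s2, s3, s4, s5, s6, s7, s10, s11, h0, h1, h2, h6] :=
  step_of h3 g0 g2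
    [g1, s0, s1, s2, s3, s4, s5, s6, s7, s10, s11, h0, h1, h2, h6] 157
    ((List.perm_middle (l₁ := [g1, g0, s0, s1, s2, s3, s4, s5, s6, s7, s10, s11, h0, h1, h2]) (a := h3)
      (l₂ := [h6])).trans
      ((List.perm_middle (l₁ := [g1]) (a := g0)
      (l₂ := [s0, s1, s2, s3, s4, s5, s6, s7, s10, s11, h0, h1, h2, h6])).cons h3))
    (by decide +kernel) (by decide +kernel) (by decide +kernel) (by decide +kernel)
    (by decide +kernel) rfl

end Vale.Agent.P333.H476
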