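import Vale.Agent.P333.H476.Str

set_option autoImplicit false

/-!
P333: steps 3 to 5 of the greedy algorithm on the counterexample.
-/

namespace Vale.Agent.P333.H476

open Vale.Agent.P333.H984

theorem step3 : Greedy.Step
    [g2, g1, s0, s1, s2, s3, s4, s5, s6, s7, s10, s11, h0, h1, h2, h6]
    [g3, g2, g1, s0, s1, s2, s3, s4, s5, s10, s11, h0, h1, h2, h6] :=
  step_of s6 s7 g3
    [g2, g1, s0, s1, s2, s3, s4, s5, s10, s11, h0, h1, h2, h6] 157
    ((List.perm_middle (l₁ := [g2, g1, s0, s1, s2, s3, s4, s5]) (a := s6)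
      (l₂ := [s7, s10, s11, h0, h1, h2, h6])).trans
      ((List.perm_middle (l₁ := [g2, g1, s0, s1, s2, s3, s4, s5]) (a := s7)
      (l₂ := [s10, s11, h0, h1, h2, h6])).cons s6))
    (by decide +kernel) (by decide +kernel) (by decide +kernel) (by decide +kernel)
    (by decide +kernel) rfl

theorem step4 : Greedy.Step
    [g3, g2, g1, s0, s1, s2, s3, s4, s5, s10, s11, h0, h1, h2, h6]
    [g4, g3, g1, s0, s1, s2, s3, s4, s5, s10, s11, h0, h1, h2] :=
  step_of g2 h6 g4
    [g3, g1, s0, s1, s2, s3, s4, s5, s10, s11, h0, h1, h2] 133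
    ((List.perm_middle (l₁ := [g3]) (a := g2)
      (l₂ := [g1, s0, s1, s2, s3, s4, s5, s10, s11, h0, h1, h2, h6])).trans
      ((List.perm_middle (l₁ := [g3, g1, s0, s1, s2, s3, s4, s5, s10, s11, h0, h1, h2]) (a := h6)
      (l₂ := [])).cons g2))
    (by decide +kernel) (by decide +kernel) (by decide +kernel) (by decide +kernel)
    (by decide +kernel) rfl

theorem step5 : Greedy.Step
    [g4, g3, g1, s0, s1, s2, s3, s4, s5, s10, s11, h0, h1, h2]
    [g5, g4, g3, g1, s0, s1, s2, s3, s4, s5, h0, h1, h2] :=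
  step_of s10 s11 g5
    [g4, g3, g1, s0, s1, s2, s3, s4, s5, h0, h1, h2] 133
    ((List.perm_middle (l₁ := [g4, g3, g1, s0, s1, s2, s3, s4, s5]) (a := s10)
      (l₂ := [s11, h0, h1, h2])).trans
      ((List.perm_middle (l₁ := [g4, g3, g1, s0, s1, s2, s3, s4, s5]) (a := s11)
      (l₂ := [h0, h1, h2])).cons s10))
    (by decide +kernel) (by decide +kernel) (by decide +kernel) (by decide +kernel)
    (by decide +kernel) rfl

end Vale.Agent.P333.H476
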