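import Vale.Agent.P333.H476.Str

set_option autoImplicit false

/-!
P333: steps 6 to 9 of the greedy algorithm on the counterexample.
-/

namespace Vale.Agent.P333.H476

open Vale.Agent.P333.H984

theorem step6 : Greedy.Step
    [g5, g4, g3, g1, s0, s1, s2, s3, s4, s5, h0, h1, h2]
    [g6, g5, g4, g3, g1, s0, s1, s2, s3, s4, s5, h0] :=
  step_of h1 h2 g6
    [g5, g4, g3, g1, s0, s1, s2, s3, s4, s5, h0] 121
    ((List.perm_middle (l₁ := [g5, g4, g3, g1, s0, s1, s2, s3, s4, s5, h0]) (a := h1)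
      (l₂ := [h2])).trans
      ((List.perm_middle (l₁ := [g5, g4, g3, g1, s0, s1, s2, s3, s4, s5, h0]) (a := h2)
      (l₂ := [])).cons h1))
    (by decide +kernel) (by decide +kernel) (by decide +kernel) (by decide +kernel)
    (by decide +kernel) rfl

theorem step7 : Greedy.Step
    [g6, g5, g4, g3, g1, s0, s1, s2, s3, s4, s5, h0]
    [g7, g5, g3, g1, s0, s1, s2, s3, s4, s5, h0] :=
  step_of g6 g4 g7
    [g5, g3, g1, s0, s1, s2, s3, s4, s5, h0] 121
    ((List.perm_middle (l₁ := []) (a := g6)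
      (l₂ := [g5, g4, g3, g1, s0, s1, s2, s3, s4, s5, h0])).trans
      ((List.perm_middle (l₁ := [g5]) (a := g4)
      (l₂ := [g3, g1, s0, s1, s2, s3, s4, s5, h0])).cons g6))
    (by decide +kernel) (by decide +kernel) (by decide +kernel) (by decide +kernel)
    (by decide +kernel) rfl

theorem step8 : Greedy.Step
    [g7, g5, g3, g1, s0, s1, s2, s3, s4, s5, h0]
    [g8, g7, g5, g3, g1, s0, s1, s4, s5, h0] :=
  step_of s2 s3 g8
    [g7, g5, g3, g1, s0, s1, s4, s5, h0] 121
    ((List.perm_middle (l₁ := [g7, g5, g3, g1, s0, s1]) (a := s2)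
      (l₂ := [s3, s4, s5, h0])).trans
      ((List.perm_middle (l₁ := [g7, g5, g3, g1, s0, s1]) (a := s3)
      (l₂ := [s4, s5, h0])).cons s2))
    (by decide +kernel) (by decide +kernel) (by decide +kernel) (by decide +kernel)
    (by decide +kernel) rfl

theorem step9 : Greedy.Step
    [g8, g7, g5, g3, g1, s0, s1, s4, s5, h0]
    [g9, g8, g7, g5, g3, g1, s0, s1, h0] :=
  step_of s4 s5 g9
    [g8, g7, g5, g3, g1, s0, s1, h0] 121
    ((List.perm_middle (l₁ := [g8, g7, g5, g3, g1, s0, s1]) (a := s4)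
      (l₂ := [s5, h0])).trans
      ((List.perm_middle (l₁ := [g8, g7, g5, g3, g1, s0, s1]) (a := s5)
      (l₂ := [h0])).cons s4))
    (by decide +kernel) (by decide +kernel) (by decide +kernel) (by decide +kernel)
    (by decide +kernel) rfl

end Vale.Agent.P333.H476
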