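import Vale.Agent.P333.H476.Str

set_option autoImplicit false

/-!
P333: steps 10 to 17 of the greedy algorithm on the counterexample.
-/

namespace Vale.Agent.P333.H476

open Vale.Agent.P333.H984

theorem step10 : Greedy.Step
    [g9, g8, g7, g5, g3, g1, s0, s1, h0]
    [g10, g9, g8, g5, g3, g1, s0, s1] :=
  step_of h0 g7 g10
    [g9, g8, g5, g3, g1, s0, s1] 107
    ((List.perm_middle (l₁ := [g9, g8, g7, g5, g3, g1, s0, s1]) (a := h0)
      (l₂ := [])).trans
      ((List.perm_middle (l₁ := [g9, g8]) (a := g7)
      (l₂ := [g5, g3, g1, s0, s1])).cons h0))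
    (by decide +kernel) (by decide +kernel) (by decide +kernel) (by decide +kernel)
    (by decide +kernel) rfl

theorem step11 : Greedy.Step
    [g10, g9, g8, g5, g3, g1, s0, s1]
    [g11, g10, g9, g8, g5, g3, g1] :=
  step_of s0 s1 g11
    [g10, g9, g8, g5, g3, g1] 107
    ((List.perm_middle (l₁ := [g10, g9, g8, g5, g3, g1]) (a := s0)
      (l₂ := [s1])).trans
      ((List.perm_middle (l₁ := [g10, g9, g8, g5, g3, g1]) (a := s1)
      (l₂ := [])).cons s0))
    (by decide +kernel) (by decide +kernel) (by decide +kernel) (by decide +kernel)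
    (by decide +kernel) rfl

theorem step12 : Greedy.Step
    [g11, g10, g9, g8, g5, g3, g1]
    [g12, g11, g10, g9, g8, g5] :=
  step_of g1 g3 g12
    [g11, g10, g9, g8, g5] 30
    ((List.perm_middle (l₁ := [g11, g10, g9, g8, g5, g3]) (a := g1)
      (l₂ := [])).trans
      ((List.perm_middle (l₁ := [g11, g10, g9, g8, g5]) (a := g3)
      (l₂ := [])).cons g1))
    (by decide +kernel) (by decide +kernel) (by decide +kernel) (by decide +kernel)
    (by decide +kernel) rfl

theorem step13 : Greedy.Step
    [g12, g11, g10, g9, g8, g5]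
    [g13, g12, g11, g10, g5] :=
  step_of g9 g8 g13
    [g12, g11, g10, g5] 8
    ((List.perm_middle (l₁ := [g12, g11, g10]) (a := g9)
      (l₂ := [g8, g5])).trans
      ((List.perm_middle (l₁ := [g12, g11, g10]) (a := g8)
      (l₂ := [g5])).cons g9))
    (by decide +kernel) (by decide +kernel) (by decide +kernel) (by decide +kernel)
    (by decide +kernel) rfl

theorem step14 : Greedy.Step
    [g13, g12, g11, g10, g5]
    [g14, g11, g10, g5] :=
  step_of g13 g12 g14
    [g11, g10, g5] 4
    ((List.perm_middle (l₁ := []) (a := g13)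
      (l₂ := [g12, g11, g10, g5])).trans
      ((List.perm_middle (l₁ := []) (a := g12)
      (l₂ := [g11, g10, g5])).cons g13))
    (by decide +kernel) (by decide +kernel) (by decide +kernel) (by decide +kernel)
    (by decide +kernel) rfl

theorem step15 : Greedy.Step
    [g14, g11, g10, g5]
    [g15, g10, g5] :=
  step_of g11 g14 g15
    [g10, g5] 4
    ((List.perm_middle (l₁ := [g14]) (a := g11)
      (l₂ := [g10, g5])).trans
      ((List.perm_middle (l₁ := []) (a := g14)
      (l₂ := [g10, g5])).cons g11))
    (by decide +kernel) (by decide +kernel) (by decide +kernel) (by decide +kernel)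
    (by decide +kernel) rfl

theorem step16 : Greedy.Step
    [g15, g10, g5]
    [g16, g10] :=
  step_of g15 g5 g16
    [g10] 0
    ((List.perm_middle (l₁ := []) (a := g15)
      (l₂ := [g10, g5])).trans
      ((List.perm_middle (l₁ := [g10]) (a := g5)
      (l₂ := [])).cons g15))
    (by decide +kernel) (by decide +kernel) (by decide +kernel) (by decide +kernel)
    (by decide +kernel) rfl

theorem step17 : Greedy.Step
    [g16, g10]
    [g17] :=
  step_of g16 g10 g17
    [] 0
    ((List.perm_middle (l₁ := []) (a := g16)
      (l₂ := [g10])).trans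
      ((List.perm_middle (l₁ := []) (a := g10)
      (l₂ := [])).cons g16))
    (by decide +kernel) (by decide +kernel) (by decide +kernel) (by decide +kernel)
    (by decide +kernel) rfl

end Vale.Agent.P333.H476
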