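import Vale.Agent.P333.H476.Fr
import Vale.Agent.P333.H476.StA
import Vale.Agent.P333.H476.StB
import Vale.Agent.P333.H476.StC
import Vale.Agent.P333.H476.StD
import Vale.Agent.P333.H476.StE

set_option autoImplicit false

/-!
P333: the greedy conjecture is false.
-/

namespace Vale.Agent.P333.H476

open Vale.Agent.P333.H984

theorem output : Greedy.Output fam g17 := by
  refine ⟨fam, reduced, ?_⟩
  have h0 := Relation.ReflTransGen.single step0
  have h1 := h0.tail step1
  have h2 := h1.tail step2
  have h3 := h2.tail step3
  have h4 := h3.tail step4
  have h5 := h4.tail step5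
  have h6 := h5.tail step6
  have h7 := h6.tail step7
  have h8 := h7.tail step8
  have h9 := h8.tail step9
  have h10 := h9.tail step10
  have h11 := h10.tail step11
  have h12 := h11.tail step12
  have h13 := h12.tail step13
  have h14 := h13.tail step14
  have h15 := h14.tail step15
  have h16 := h15.tail step16
  have h17 := h16.tail step17
  exact h17

/-- **The greedy conjecture of Tarhio and Ukkonen is false.** -/
theorem greedy_conjecture_fails : ∃ (S : List (List ℕ)) (t : List ℕ), Greedy.Reduced S S ∧
    Greedy.Output S t ∧ 203 * opt S < 100 * t.length := by
  refine ⟨fam, g17, reduced, output, ?_⟩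
  have h1 := opt_le
  have h3 := length_out
  omega

end Vale.Agent.P333.H476
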